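import Mathlib

/-!
P162, stage 2, abstract side (parts C, D, E, F, G of note 1654): common objects.
`α` is the set of red lines, `N = Fintype.card α`, everything lives on
`FS α = EuclideanSpace ℝ (Equiv.Perm α)`.
-/

namespace Vale.Agent.P162.S2.Abs

open Equiv
open scoped BigOperators InnerProductSpace

variable {α : Type*} [Fintype α] [DecidableEq α]

/-- functions on the symmetric group with the `ℓ²` inner product -/
abbrev FS (α : Type*) [Fintype α] [DecidableEq α] := EuclideanSpace ℝ (Perm α)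

/-- left translation, `(lt g f) h = f (g⁻¹ * h)` (acts on the values `h a`) -/
noncomputable def lt (g : Perm α) : FS α →ₗ[ℝ] FS α where
  toFun f := WithLp.toLp 2 fun h => f (g⁻¹ * h)
  map_add' f f' := by ext h; simp
  map_smul' c f := by ext h; simp

@[simp] theorem lt_apply (g : Perm α) (f : FS α) (h : Perm α) : lt g f h = f (g⁻¹ * h) := rfl

/-- right translation, `(rt g f) h = f (h * g)` -/
noncomputable def rt (g : Perm α) : FS α →ₗ[ℝ] FS α where
  toFun f := WithLp.toLp 2 fun h => f (h * g)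
  map_add' f f' := by ext h; simp
  map_smul' c f := by ext h; simp

@[simp] theorem rt_apply (g : Perm α) (f : FS α) (h : Perm α) : rt g f h = f (h * g) := rfl

/-- the operator `Q = ∑ q(g) lt g` of a function `q` on the group (left convolution by `q`) -/
noncomputable def op (q : Perm α → ℝ) : FS α →ₗ[ℝ] FS α := ∑ g, q g • lt g

theorem op_apply (q : Perm α → ℝ) (f : FS α) (h : Perm α) :
    op q f h = ∑ g, q g * f (g⁻¹ * h) := by
  simp [op]

/-- the functions of `h` that only depend on the values of `h` on `K` (the positions of the cards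
`K`) -/
def junta (K : Finset α) : Submodule ℝ (FS α) where
  carrier := {f | ∀ h h' : Perm α, (∀ a ∈ K, h a = h' a) → f h = f h'}
  add_mem' := by
    intro f f' hf hf' h h' hh
    simp [hf h h' hh, hf' h h' hh]
  zero_mem' := by intro h h' _; rfl
  smul_mem' := by
    intro c f hf h h' hh
    simp [hf h h' hh]

/-- the span of the functions that depend on at most `k` values -/
def Vle (α : Type*) [Fintype α] [DecidableEq α] (k : ℕ) : Submodule ℝ (FS α) :=
  ⨆ K : Finset α, ⨆ _ : K.card ≤ k, junta K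

/-- the level `k ≥ 1` part, `V_k ∩ V_{k-1}^⊥` -/
noncomputable def Lev (α : Type*) [Fintype α] [DecidableEq α] (k : ℕ) : Submodule ℝ (FS α) :=
  Vle α k ⊓ (Vle α (k - 1))ᗮ

/-- trace of `A` on the subspace `E` (for `E` invariant this is the trace of the restriction) -/
noncomputable def trOn (A : FS α →ₗ[ℝ] FS α) (E : Submodule ℝ (FS α)) : ℝ :=
  LinearMap.trace ℝ (FS α) (A ∘ₗ (E.starProjection : FS α →L[ℝ] FS α).toLinearMap)

/-- the average over the group `⟨swap a b, (a, b) ∈ M⟩`, for a list `M` of disjoint pairs -/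
noncomputable def PM (M : List (α × α)) : FS α →ₗ[ℝ] FS α :=
  (M.map fun e => (1 / 2 : ℝ) • (1 + lt (swap e.1 e.2))).prod

/-- `M` consists of pairwise disjoint pairs of distinct points -/
def IsMatching (M : List (α × α)) : Prop :=
  (M.flatMap fun e => [e.1, e.2]).Nodup

/-- what the Thorp side provides (one fixed function `q` on `Perm α`, `κ > 0`) -/
structure Data (q : Perm α → ℝ) (κ : ℝ) : Prop where
  even : Even (Fintype.card α)
  nonneg : ∀ g, 0 ≤ q g
  sum_le : ∑ g, q g ≤ 1
  symm : ∀ g, q g⁻¹ = q g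
  class_fn : ∀ x g, q (x * g * x⁻¹) = q g
  psd : ∀ f : FS α, 0 ≤ ⟪op q f, f⟫_ℝ
  fix_le : ∀ S : Finset α, (∑ g with ∀ a ∈ S, g a = a, q g) ≤
    ((Fintype.card α : ℝ) ^ (-κ)) ^ S.card
  matching : ∃ (ι : Type) (_ : Fintype ι) (p : ι → ℝ) (M : ι → List (α × α)),
    (∀ i, 0 ≤ p i) ∧ (∑ i, p i ≤ 1) ∧ (∀ i, IsMatching (M i)) ∧
    (∀ i, 2 * Fintype.card α ≤ 5 * (M i).length) ∧
    ∀ f : FS α, ⟪op q f, f⟫_ℝ ≤ ∑ i, p i * ⟪PM (M i) f, f⟫_ℝ

/-- `N! q^{*R}(1)` -/
noncomputable def ret (q : Perm α → ℝ) (R : ℕ) : ℝ := LinearMap.trace ℝ (FS α) (op q ^ R)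

end Vale.Agent.P162.S2.Abs
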