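import Vale.Agent.P162.S2.Abs

/-!
P162, stage 2, abstract side: the exact statements of parts C, D, E, F used by the assembly G,
and the statement of G (`AB`).
-/

namespace Vale.Agent.P162.S2.Abs

open Equiv
open scoped BigOperators InnerProductSpace

/-- number of `K`-colourings fixed by `σ` (`= K ^ (number of cycles)`) -/
noncomputable def fixK {α : Type*} (K : ℕ) (σ : Perm α) : ℕ :=
  Nat.card {z : α → Fin K // ∀ a, z (σ a) = z a}

/-- number of fixed points -/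
noncomputable def fixP {α : Type*} (σ : Perm α) : ℕ := Nat.card {a : α // σ a = a}

/-- `Z = ∑_{g,g'} q(g) q(g') Fix_K(g g')` -/
noncomputable def ZK {α : Type*} [Fintype α] [DecidableEq α] (q : Perm α → ℝ) (K : ℕ) : ℝ :=
  ∑ g, ∑ g', q g * q g' * fixK K (g * g')

/-- (C), colouring lemma (helper561) -/
def PropC : Prop := ∀ (α : Type) [Fintype α] [DecidableEq α] (K : ℕ) (g₁ g₂ : Perm α),
  0 < K → 0 < Fintype.card α →
  (∑ x : Perm α, (fixK K (g₁ * x * g₂ * x⁻¹) : ℝ)) / (Fintype.card (Perm α) : ℝ) ≤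
    (Real.exp 1 * Fintype.card α * (Fintype.card α + 1)) ^ (K ^ 2) *
      (K : ℝ) ^ (((fixP g₁ : ℝ) + fixP g₂) / 2)

/-- (D), multiplicity bound in trace form (helper372) -/
def PropD : Prop := ∀ (α : Type) [Fintype α] [DecidableEq α] (q : Perm α → ℝ),
  (∀ g, 0 ≤ q g) → (∀ g, q g⁻¹ = q g) → (∀ x g, q (x * g * x⁻¹) = q g) →
  (∀ f : FS α, 0 ≤ ⟪op q f, f⟫_ℝ) →
  ∀ (κ' M : ℝ) (R : ℕ) (E : Submodule ℝ (FS α)), 0 < κ' → κ' ≤ 1 / 2 → 0 ≤ M → M ≤ 1 →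
  4 / κ' ≤ R → 0 < Fintype.card α →
  (∀ g, ∀ f ∈ E, lt g f ∈ E) → (∀ g, ∀ f ∈ E, rt g f ∈ E) →
  (∀ f ∈ E, ⟪op q f, f⟫_ℝ ≤ M * ‖f‖ ^ 2) →
  trOn (op q ^ R) E ≤ 2 * M ^ ((R : ℝ) - 4 / κ') *
    (ZK q ⌈(Fintype.card α : ℝ) ^ κ'⌉₊) ^ (2 / κ')

/-- the functions fixed by all left translations by permutations of the positions in `B` -/
def InvS {α : Type*} [Fintype α] [DecidableEq α] (B : Finset α) : Submodule ℝ (FS α) where
  carrier := {f | ∀ x ∈ B, ∀ y ∈ B, lt (swap x y) f = f}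
  add_mem' := by
    intro f f' hf hf' x hx y hy
    rw [map_add, hf x hx y hy, hf' x hx y hy]
  zero_mem' := by intro x _ y _; simp
  smul_mem' := by
    intro c f hf x hx y hy
    rw [map_smul, hf x hx y hy]

/-- `V_k`: the span of the functions fixed by `S_B` for some `B` with `|B| ≥ N - k` -/
def LowS (α : Type*) [Fintype α] [DecidableEq α] (k : ℕ) : Submodule ℝ (FS α) :=
  ⨆ B : Finset α, ⨆ _ : Fintype.card α ≤ B.card + k, InvS B

/-- (E), level inequality (helper790, helper816) -/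
def PropE : Prop := ∃ c : ℝ, 0 < c ∧ ∃ k₁ : ℕ, ∀ (α : Type) [Fintype α] [DecidableEq α]
  (q : Perm α → ℝ) (κ : ℝ), Data q κ → ∀ k : ℕ, k₁ ≤ k → k ≤ Fintype.card α →
  ∀ f ∈ (LowS α k)ᗮ, ⟪op q f, f⟫_ℝ ≤ (2 : ℝ) ^ (-(c * k)) * ‖f‖ ^ 2

/-- (F), low levels (helper560, helper151), for a fixed `κ` -/
def PropF (κ : ℝ) : Prop := ∃ (R₀ N₀ : ℕ) (C : ℝ), ∀ (α : Type) [Fintype α] [DecidableEq α]
  (q : Perm α → ℝ), N₀ ≤ Fintype.card α → Data q κ → ∀ R ≥ R₀, Even R → ∀ k : ℕ,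
  (k : ℝ) ≤ (Fintype.card α : ℝ) ^ (1 - κ / 2) →
  trOn (op q ^ R) (LowS α k) ≤ (∑ g, q g) ^ R + C / Fintype.card α

/-- the result of the abstract side, for a fixed `κ` -/
def AB (κ : ℝ) : Prop := ∃ R : ℕ, ∀ ε > 0, ∃ N₀ : ℕ, ∀ (α : Type) [Fintype α] [DecidableEq α]
  (q : Perm α → ℝ), N₀ ≤ Fintype.card α → Data q κ → ret q R ≤ (∑ g, q g) ^ R + ε

end Vale.Agent.P162.S2.Abs
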