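import Vale.Agent.P162.S2.Col2
import Vale.Agent.P162.H815.Final
import Vale.Agent.P162.H175.G3

/-!
# P162, stage 2: assembly of the Thorp side for the cube

Inputs: part A (`H815.partA`), the abstract theorem `Abs.AB κ`, and part B (`PartB`).
-/

open Finset Equiv

namespace Vale.Agent.P162.S2

namespace Net

variable {X : Type*} [Fintype X] [DecidableEq X] {W : Net X}

/-- All estimates together, for one deck. -/
theorem run_le_quarter {α : Type} [Fintype α] [DecidableEq α] {P T D : ℕ} (hW : W.Per P)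
    (hT : P ∣ T) (hD : P ∣ D) (ι : α ↪ X) {δ : ℝ} (hδ : W.Mixes T δ α)
    (hδ' : W.Mixes T δ {x // x ∉ Set.range ι}) {ω : (α ↪ X) → (Fin D → X → Bool) → ℝ}
    (h0 : ∀ f r, 0 ≤ ω f r) (h1 : ∀ f r, ω f r ≤ 1) (hω : ∀ τ f r, ω (relab τ f) r = ω f r)
    {R : ℕ} (hR : 1 ≤ R)
    (hret : Abs.ret (W.qlaw D ω) R ≤ (∑ g, W.qlaw D ω g) ^ R + 1 / 16)
    (e1 : (R + 1) * δ ≤ 1 / 16)
    (e2 : R * (1 - avg fun f : α ↪ X => avg fun r => ω f r) ≤ 1 / 16)
    (F : Perm X → ℝ) (hF0 : ∀ g, 0 ≤ F g) (hF1 : ∀ g, F g ≤ 1) :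
    W.run 0 (R * (T + D)) F 1 ≤ avg F + 1 / 4 := by
  have h := run_le hW hT hD ι hδ hδ' h0 h1 hω hR F hF0 hF1
  have h2 : (Fintype.card (Perm α) : ℝ) * convPow (W.qlaw D ω) R 1 -
      (∑ g, W.qlaw D ω g) ^ R ≤ 1 / 16 := by
    rw [Fintype.card_perm, ← Abs.ret_eq]
    linarith
  have h3 : √((Fintype.card (Perm α) : ℝ) * convPow (W.qlaw D ω) R 1 -
      (∑ g, W.qlaw D ω g) ^ R) ≤ 1 / 4 := by
    rw [Real.sqrt_le_left (by norm_num)]
    refine h2.trans ?_
    norm_num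
  linarith

end Net

theorem cube_per (d : ℕ) [NeZero d] : (cube d).Per d := by
  refine ⟨fun s x => ?_, fun s x => ?_, fun s => rfl⟩
  · change nb (dir d (s + d)) x = nb (dir d s) x
    rw [dir_add_self]
  · change rep (dir d (s + d)) x = rep (dir d s) x
    rw [dir_add_self]

/-- Part A in the form used by the assembly. -/
theorem cube_mixes {d : ℕ} [NeZero d] (hd : 25 ≤ d) {α : Type*} [Fintype α] [DecidableEq α]
    (hα : (Fintype.card α : ℝ) ≤ 7 / 8 * 2 ^ d) :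
    (cube d).Mixes (d * 151) (1 / (2 ^ d) ^ 3) α := by
  classical
  intro f F h0 h1
  have h := H815.partA hd hα 0 (d * 151) (by omega) f
    (fun g => if hg : Function.Injective g then F ⟨g, hg⟩ else 0)
    (fun g => by
      split
      · exact ⟨h0 _, h1 _⟩
      · exact ⟨le_rfl, zero_le_one⟩)
  have h2 : ∀ w : Fin (d * 151) → Coin d,
      (if hg : Function.Injective (fun b => pos 0 (d * 151) w (f b)) then
        F ⟨fun b => pos 0 (d * 151) w (f b), hg⟩ else 0) =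
        F (Net.mov ((cube d).pos 0 (d * 151) w) f) := by
    intro w
    have hg : Function.Injective (fun b => pos 0 (d * 151) w (f b)) :=
      (pos 0 (d * 151) w).injective.comp f.injective
    rw [dif_pos hg, cube_pos]
    rfl
  have h3 : ∀ e : α ↪ V d, (if hg : Function.Injective (e : α → V d) then
      F ⟨e, hg⟩ else 0) = F e := by
    intro e
    rw [dif_pos e.injective]
    rfl
  simp only [h2, h3] at h
  exact h

/-- What part B has to provide for the cube. -/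
def PartB (κ : ℝ) : Prop := ∀ ε > 0, ∃ d₀ : ℕ, ∀ (d : ℕ) [NeZero d], d₀ ≤ d →
  ∃ ω : (Fin (7 * 2 ^ (d - 3)) ↪ V d) → (Fin d → V d → Bool) → ℝ,
    (∀ f r, 0 ≤ ω f r) ∧ (∀ f r, ω f r ≤ 1) ∧ (∀ τ f r, ω (Net.relab τ f) r = ω f r) ∧
    Abs.Data ((cube d).qlaw d ω) κ ∧
    (1 - avg fun f : Fin (7 * 2 ^ (d - 3)) ↪ V d => avg fun r => ω f r) ≤ ε

theorem cube_main {κ : ℝ} (hAB : Abs.AB κ) (hB : PartB κ) :
    ∃ r d₁ : ℕ, ∀ (d : ℕ) [NeZero d], d₁ ≤ d → ∀ F : Perm (V d) → ℝ, (∀ g, 0 ≤ F g) →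
      (∀ g, F g ≤ 1) →
        (avg fun w : Fin (d * r) → Coin d => F (pos 0 (d * r) w)) ≤ avg F + 1 / 4 := by
  obtain ⟨R, hR⟩ := hAB
  obtain ⟨N₀, hN⟩ := hR (1 / 16) (by norm_num)
  obtain ⟨d₀, hd₀⟩ := hB (1 / (16 * (R + 1))) (by positivity)
  refine ⟨152 * R, d₀ + N₀ + 16 * (R + 1) + 25, ?_⟩
  intro d _ hd F h0 h1
  obtain ⟨ω, w0, w1, w2, w3, w4⟩ := hd₀ d (by omega)
  have hcard : Fintype.card (Fin (7 * 2 ^ (d - 3))) = 7 * 2 ^ (d - 3) := Fintype.card_fin _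
  have hpow : (2 : ℕ) ^ d = 8 * 2 ^ (d - 3) := by
    obtain ⟨k, rfl⟩ : ∃ k, d = k + 3 := ⟨d - 3, by omega⟩
    rw [Nat.add_sub_cancel, pow_add]
    ring
  have hlt : d - 3 < 2 ^ (d - 3) := Nat.lt_two_pow_self
  have hlt' : d < 2 ^ d := Nat.lt_two_pow_self
  have hret := hN (Fin (7 * 2 ^ (d - 3))) _ (by rw [hcard]; omega) w3
  have hR1 : 1 ≤ R := by
    by_contra hR0
    have : R = 0 := by omega
    subst this
    rw [Abs.ret_eq] at hret
    simp only [convPow, if_true, mul_one, pow_zero, hcard] at hret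
    have h2 : 2 ≤ (7 * 2 ^ (d - 3)).factorial := by
      calc 2 = Nat.factorial 2 := rfl
        _ ≤ _ := Nat.factorial_le (by omega)
    have h3 : (2 : ℝ) ≤ ((7 * 2 ^ (d - 3)).factorial : ℝ) := by exact_mod_cast h2
    linarith
  have hle : 7 * 2 ^ (d - 3) ≤ 2 ^ d := by omega
  obtain ⟨ι⟩ : Nonempty (Fin (7 * 2 ^ (d - 3)) ↪ V d) := by
    apply Function.Embedding.nonempty_of_card_le
    simpa [Fintype.card_fun] using hle
  have hpow' : ((2 : ℝ) ^ d) = 8 * 2 ^ (d - 3) := by exact_mod_cast hpow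
  have m1 : (cube d).Mixes (d * 151) (1 / (2 ^ d) ^ 3) (Fin (7 * 2 ^ (d - 3))) := by
    apply cube_mixes (by omega)
    rw [hcard, hpow']
    push_cast
    linarith
  have m2 : (cube d).Mixes (d * 151) (1 / (2 ^ d) ^ 3) {x // x ∉ Set.range ι} := by
    apply cube_mixes (by omega)
    have h2 : Fintype.card {x // x ∉ Set.range ι} = 2 ^ d - 7 * 2 ^ (d - 3) := by
      have h3 := Fintype.card_subtype_compl (fun x => x ∈ Set.range ι)
      have h4 : Fintype.card {x // x ∈ Set.range ι} = 7 * 2 ^ (d - 3) := by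
        have := Set.card_range_of_injective ι.injective
        rw [hcard] at this
        exact this
      rw [h4] at h3
      simpa [Fintype.card_fun] using h3
    have h5 : Fintype.card {x // x ∉ Set.range ι} ≤ 2 ^ (d - 3) := by
      rw [h2]; omega
    have h6 : (Fintype.card {x // x ∉ Set.range ι} : ℝ) ≤ 2 ^ (d - 3) := by exact_mod_cast h5
    have h7 : (0 : ℝ) < 2 ^ (d - 3) := by positivity
    rw [hpow']
    linarith
  have e1 : ((R : ℝ) + 1) * (1 / (2 ^ d) ^ 3) ≤ 1 / 16 := by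
    have h2 : (16 : ℝ) * (R + 1) ≤ 2 ^ d := by
      have : 16 * (R + 1) ≤ 2 ^ d := by omega
      exact_mod_cast this
    have h3 : (1 : ℝ) ≤ 2 ^ d := one_le_pow₀ (by norm_num)
    have h4 : (2 : ℝ) ^ d ≤ (2 ^ d) ^ 3 := le_self_pow₀ h3 (by norm_num)
    rw [mul_one_div, div_le_iff₀ (by positivity)]
    linarith
  have e2 : (R : ℝ) * (1 - avg fun f : Fin (7 * 2 ^ (d - 3)) ↪ V d => avg fun r => ω f r) ≤
      1 / 16 := by
    refine (mul_le_mul_of_nonneg_left w4 (by positivity)).trans ?_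
    rw [mul_one_div, div_le_div_iff₀ (by positivity) (by norm_num)]
    nlinarith [Nat.cast_nonneg (α := ℝ) R]
  have h := Net.run_le_quarter (cube_per d) (Dvd.intro _ rfl) dvd_rfl ι m1 m2 w0 w1 w2 hR1 hret e1
    e2 F h0 h1
  have e3 : R * (d * 151 + d) = d * (152 * R) := by ring
  rw [e3, Net.run] at h
  simpa only [cube_pos, mul_one] using h

end Vale.Agent.P162.S2
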