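import Mathlib

/-!
# P162, stage 2: common objects of the Thorp side (static hypercube form)

Positions are the points of the cube `V d = Fin d → Bool`.  Step `s` uses the direction `s mod d`:
every pair `{x, nb i x}` (a *switch*) is swapped or not, according to a coin.
-/

open Finset Equiv

namespace Vale.Agent.P162.S2

/-- Positions of the deck in the hypercube form. -/
abbrev V (d : ℕ) := Fin d → Bool

/-- The other position of the switch of direction `i` through `x`. -/
def nb {d : ℕ} (i : Fin d) (x : V d) : V d := Function.update x i (!x i)

/-- The representative of the switch of direction `i` through `x`. -/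
def rep {d : ℕ} (i : Fin d) (x : V d) : V d := Function.update x i false

/-- Coins of one step (only the values at representatives are used). -/
abbrev Coin (d : ℕ) := V d → Bool

theorem nb_nb {d : ℕ} (i : Fin d) (x : V d) : nb i (nb i x) = x := by
  simp [nb]

theorem nb_ne {d : ℕ} (i : Fin d) (x : V d) : nb i x ≠ x := by
  intro h
  have := congrFun h i
  simp [nb] at this

theorem rep_nb {d : ℕ} (i : Fin d) (x : V d) : rep i (nb i x) = rep i x := by
  simp [nb, rep]

theorem rep_eq_iff {d : ℕ} (i : Fin d) (x y : V d) : rep i x = rep i y ↔ y = x ∨ y = nb i x := by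
  constructor
  · intro h
    by_cases hi : y i = x i
    · left
      funext j
      by_cases hj : j = i
      · subst hj; exact hi
      · have := congrFun h j
        simpa [rep, hj] using this.symm
    · right
      funext j
      by_cases hj : j = i
      · subst hj
        have : y j = !x j := by
          cases h1 : y j <;> cases h2 : x j <;> simp_all
        simp [nb, this]
      · have := congrFun h j
        simpa [rep, nb, hj] using this.symm
  · rintro (rfl | rfl)
    · rfl
    · rw [rep_nb]

/-- One step: the switches of direction `i` with coins `c`. -/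
def sw {d : ℕ} (i : Fin d) (c : Coin d) : Perm (V d) :=
  Function.Involutive.toPerm (fun x => if c (rep i x) then nb i x else x) (by
    intro x
    by_cases h : c (rep i x) = true
    · simp [h, rep_nb, nb_nb]
    · simp [h])

theorem sw_apply {d : ℕ} (i : Fin d) (c : Coin d) (x : V d) :
    sw i c x = if c (rep i x) then nb i x else x := rfl

theorem sw_apply_of_ne {d : ℕ} {i j : Fin d} (h : j ≠ i) (c : Coin d) (x : V d) :
    sw i c x j = x j := by
  rw [sw_apply]
  split
  · simp [nb, h]
  · rfl

theorem sw_xor {d : ℕ} (i : Fin d) (c c' : Coin d) :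
    sw i (fun x => xor (c x) (c' x)) = sw i c * sw i c' := by
  ext1 x
  rw [Perm.mul_apply, sw_apply, sw_apply, sw_apply]
  cases h1 : c (rep i x) <;> cases h2 : c' (rep i x) <;> simp [h1, rep_nb, nb_nb]

/-- The average of a real function over a finite type. -/
noncomputable def avg {α : Type*} [Fintype α] (f : α → ℝ) : ℝ := (∑ a, f a) / Fintype.card α

section
variable {α β : Type*} [Fintype α] [Fintype β]

theorem avg_const [Nonempty α] (c : ℝ) : avg (fun _ : α => c) = c := by
  have : (Fintype.card α : ℝ) ≠ 0 := by
    exact_mod_cast Fintype.card_ne_zero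
  simp [avg, this]

theorem avg_add (f g : α → ℝ) : avg (fun a => f a + g a) = avg f + avg g := by
  simp [avg, sum_add_distrib, add_div]

theorem avg_sub (f g : α → ℝ) : avg (fun a => f a - g a) = avg f - avg g := by
  simp [avg, sum_sub_distrib, sub_div]

theorem avg_mul_left (c : ℝ) (f : α → ℝ) : avg (fun a => c * f a) = c * avg f := by
  simp [avg, ← mul_sum, mul_div_assoc]

theorem avg_mul_right (c : ℝ) (f : α → ℝ) : avg (fun a => f a * c) = avg f * c := by
  simp [avg, ← sum_mul, mul_div_right_comm]

theorem avg_mono {f g : α → ℝ} (h : ∀ a, f a ≤ g a) : avg f ≤ avg g := by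
  unfold avg
  gcongr with a
  exact h a

theorem avg_nonneg {f : α → ℝ} (h : ∀ a, 0 ≤ f a) : 0 ≤ avg f := by
  unfold avg
  have := sum_nonneg (s := univ) fun a _ => h a
  positivity

theorem avg_sum {ι : Type*} (s : Finset ι) (f : ι → α → ℝ) :
    avg (fun a => ∑ i ∈ s, f i a) = ∑ i ∈ s, avg (f i) := by
  simp only [avg]
  rw [sum_comm, sum_div]

theorem avg_prod (f : α × β → ℝ) : avg f = avg fun a => avg fun b => f (a, b) := by
  simp only [avg, Fintype.sum_prod_type, Fintype.card_prod, Nat.cast_mul, ← sum_div, div_div]
  rw [mul_comm (Fintype.card α : ℝ)]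

theorem avg_comm (f : α → β → ℝ) : (avg fun a => avg fun b => f a b) = avg fun b => avg fun a => f a b := by
  simp only [avg, ← sum_div, div_div]
  rw [sum_comm, mul_comm]

theorem avg_equiv (e : α ≃ β) (f : β → ℝ) : avg (fun a => f (e a)) = avg f := by
  simp only [avg, Fintype.card_congr e]
  rw [Equiv.sum_comp e f]

end

/-! ### The process -/

/-- The direction of step `s`. -/
def dir (d : ℕ) [NeZero d] (s : ℕ) : Fin d := Fin.ofNat d s

@[simp] theorem dir_val (d : ℕ) [NeZero d] (s : ℕ) : ((dir d s : Fin d) : ℕ) = s % d := rfl

theorem dir_add_self (d : ℕ) [NeZero d] (s : ℕ) : dir d (s + d) = dir d s := by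
  apply Fin.ext
  simp

/-- The permutation performed by `L` steps with coins `w`, the first direction being `a mod d`:
the card that starts at `x` is finally at `pos a L w x`. -/
def pos {d : ℕ} [NeZero d] (a : ℕ) : ∀ L : ℕ, (Fin L → Coin d) → Perm (V d)
  | 0, _ => 1
  | L + 1, w => sw (dir d (a + L)) (w (Fin.last L)) * pos a L (Fin.init w)

section
variable {d : ℕ} {α : Type*}

open Classical in
/-- The line that shares with `a` the switch of direction `i` (lines at the positions `f`); `a`
itself if there is none. -/
noncomputable def partner (i : Fin d) (f : α ↪ V d) (a : α) : α :=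
  if h : ∃ b, f b = nb i (f a) then h.choose else a

theorem partner_of {i : Fin d} {f : α ↪ V d} {a b : α} (h : f b = nb i (f a)) :
    partner i f a = b := by
  have h' : ∃ b, f b = nb i (f a) := ⟨b, h⟩
  rw [partner, dif_pos h']
  exact f.injective (h'.choose_spec.trans h.symm)

theorem partner_of_not {i : Fin d} {f : α ↪ V d} {a : α}
    (h : ¬ ∃ b, f b = nb i (f a)) : partner i f a = a := by
  rw [partner, dif_neg h]

theorem partner_partner (i : Fin d) (f : α ↪ V d) (a : α) :
    partner i f (partner i f a) = a := by
  by_cases h : ∃ b, f b = nb i (f a)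
  · obtain ⟨b, hb⟩ := h
    rw [partner_of hb]
    exact partner_of (by rw [hb, nb_nb])
  · rw [partner_of_not h, partner_of_not h]

theorem rep_partner (i : Fin d) (f : α ↪ V d) (a : α) :
    rep i (f (partner i f a)) = rep i (f a) := by
  by_cases h : ∃ b, f b = nb i (f a)
  · obtain ⟨b, hb⟩ := h
    rw [partner_of hb, hb, rep_nb]
  · rw [partner_of_not h]

/-- The hidden permutation of the lines in one step of direction `i`: the two lines of a switch that
contains two lines are exchanged if the coin `c` of the switch says so. -/
noncomputable def hstep (i : Fin d) (f : α ↪ V d) (c : Coin d) : Perm α :=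
  Function.Involutive.toPerm (fun a => if c (rep i (f a)) then partner i f a else a) (by
    intro a
    by_cases h : c (rep i (f a)) = true
    · simp [h, rep_partner, partner_partner]
    · simp [h])

theorem hstep_apply (i : Fin d) (f : α ↪ V d) (c : Coin d) (a : α) :
    hstep i f c a = if c (rep i (f a)) then partner i f a else a := rfl

/-- Lines at the positions `f`, moved by the permutation `g` of the positions. -/
def mv (g : Perm (V d)) (f : α ↪ V d) : α ↪ V d := f.trans g.toEmbedding

@[simp] theorem mv_apply (g : Perm (V d)) (f : α ↪ V d) (a : α) : mv g f a = g (f a) := rfl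

theorem mv_one (f : α ↪ V d) : mv 1 f = f := by ext; rfl

theorem mv_mul (g h : Perm (V d)) (f : α ↪ V d) : mv (g * h) f = mv g (mv h f) := by
  ext; rfl

/-- The hidden permutation of the lines in `L` steps (first direction `a mod d`), the lines starting
at `f` and moving with the revealed coins `r`; `e` are the hidden coins. -/
noncomputable def hid [NeZero d] (a : ℕ) :
    ∀ L : ℕ, (α ↪ V d) → (Fin L → Coin d) → (Fin L → Coin d) → Perm α
  | 0, _, _, _ => 1
  | L + 1, f, r, e =>
    hstep (dir d (a + L)) (mv (pos a L (Fin.init r)) f) (e (Fin.last L)) *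
      hid a L f (Fin.init r) (Fin.init e)

end

end Vale.Agent.P162.S2
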