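import Vale.Agent.P162.S2.Net

/-!
# P162, stage 2: the colour trick

Run the lines with the revealed coins `r` and exchange hidden lines with the hidden coins `e`: the
deck `pos r * σ * (hidden permutation)` has the law of the shuffle.
-/

open Finset Equiv

namespace Vale.Agent.P162.S2

section avg
variable {C : Type*} [Fintype C]

theorem avg_snoc (L : ℕ) (F : (Fin (L + 1) → C) → ℝ) :
    avg F = avg fun w : Fin L → C => avg fun c : C => F (Fin.snoc w c) := by
  have h := avg_equiv (Fin.snocEquiv fun _ : Fin (L + 1) => C) F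
  rw [← h, avg_prod, avg_comm]
  rfl

theorem avg_unique {β : Type*} [Fintype β] [Unique β] (F : β → ℝ) : avg F = F default := by
  simp [avg]

end avg

namespace Net

variable {X : Type*} [Fintype X] [DecidableEq X] (W : Net X)

/-- The expectation of `F` at the state after `L` steps from the state `σ`. -/
noncomputable def run (a L : ℕ) (F : Perm X → ℝ) (σ : Perm X) : ℝ :=
  avg fun w : Fin L → X → Bool => F (W.pos a L w * σ)

theorem run_zero (a : ℕ) (F : Perm X → ℝ) (σ : Perm X) : W.run a 0 F σ = F σ := by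
  rw [run, avg_unique]
  simp [pos]

theorem run_succ (a L : ℕ) (F : Perm X → ℝ) (σ : Perm X) :
    W.run a (L + 1) F σ =
      W.run a L (fun x => avg fun c : X → Bool => F (W.step (a + L) c * x)) σ := by
  rw [run, run, avg_snoc]
  simp only [pos, Fin.snoc_last, Fin.init_snoc, mul_assoc]

theorem run_add (a L M : ℕ) (F : Perm X → ℝ) (σ : Perm X) :
    W.run a (L + M) F σ = W.run a L (W.run (a + L) M F) σ := by
  induction M generalizing F with
  | zero =>
    congr 1
    funext x
    rw [run_zero]
  | succ M ih =>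
    rw [← Nat.add_assoc, run_succ, ih]
    congr 1
    funext x
    rw [run_succ]
    simp only [Nat.add_assoc]

theorem run_mul (a L : ℕ) (F : Perm X → ℝ) (σ ρ : Perm X) :
    W.run a L F (σ * ρ) = W.run a L (fun x => F (x * ρ)) σ := by
  simp only [run, mul_assoc]

theorem run_mono {a L : ℕ} {F G : Perm X → ℝ} (h : ∀ x, F x ≤ G x) (σ : Perm X) :
    W.run a L F σ ≤ W.run a L G σ := avg_mono fun _ => h _

/-- The network is periodic with period `P`. -/
def Per (P : ℕ) : Prop :=
  (∀ s x, W.nb (s + P) x = W.nb s x) ∧ (∀ s x, W.rep (s + P) x = W.rep s x) ∧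
    ∀ s, W.tw (s + P) = W.tw s

variable {W}

omit [Fintype X] [DecidableEq X] in
theorem Per.dvd {P m : ℕ} (h : W.Per P) (hm : P ∣ m) : W.Per m := by
  obtain ⟨k, rfl⟩ := hm
  obtain ⟨h1, h2, h3⟩ := h
  induction k with
  | zero => simp [Per]
  | succ k ih =>
    obtain ⟨i1, i2, i3⟩ := ih
    refine ⟨fun s x => ?_, fun s x => ?_, fun s => ?_⟩
    · rw [Nat.mul_succ, ← Nat.add_assoc, h1, i1]
    · rw [Nat.mul_succ, ← Nat.add_assoc, h2, i2]
    · rw [Nat.mul_succ, ← Nat.add_assoc, h3, i3]

omit [Fintype X] [DecidableEq X] in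
theorem Per.sw {P : ℕ} (h : W.Per P) (s : ℕ) (c : X → Bool) : W.sw (s + P) c = W.sw s c := by
  ext1 x
  rw [sw_apply, sw_apply, h.1, h.2.1]

omit [Fintype X] [DecidableEq X] in
theorem Per.step {P : ℕ} (h : W.Per P) (s : ℕ) (c : X → Bool) :
    W.step (s + P) c = W.step s c := by
  rw [Net.step, Net.step, h.sw, h.2.2]

omit [Fintype X] [DecidableEq X] in
theorem Per.pos {P : ℕ} (h : W.Per P) (a : ℕ) : ∀ (L : ℕ) (w : Fin L → X → Bool),
    W.pos (a + P) L w = W.pos a L w
  | 0, _ => rfl
  | L + 1, w => by
    rw [Net.pos, Net.pos, Per.pos h a L, show a + P + L = a + L + P by omega, h.step]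

theorem Per.run {P : ℕ} (h : W.Per P) (a L : ℕ) (F : Perm X → ℝ) (σ : Perm X) :
    W.run (a + P) L F σ = W.run a L F σ := by
  simp only [Net.run, h.pos]

omit [Fintype X] [DecidableEq X] in
theorem Per.hstep {P : ℕ} (h : W.Per P) {α : Type*} (s : ℕ) (f : α ↪ X) (c : X → Bool) :
    W.hstep (s + P) f c = W.hstep s f c := by
  ext1 a
  have h1 : W.partner (s + P) f a = W.partner s f a := by
    by_cases hb : ∃ b, f b = W.nb s (f a)
    · obtain ⟨b, hb⟩ := hb
      rw [partner_of hb, partner_of (by rw [h.1]; exact hb)]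
    · rw [partner_of_not hb, partner_of_not]
      simpa only [h.1] using hb
  rw [hstep_apply, hstep_apply, h1, h.2.1]

omit [Fintype X] [DecidableEq X] in
theorem Per.hid {P : ℕ} (h : W.Per P) {α : Type*} (a : ℕ) :
    ∀ (L : ℕ) (f : α ↪ X) (r e : Fin L → X → Bool), W.hid (a + P) L f r e = W.hid a L f r e
  | 0, _, _, _ => rfl
  | L + 1, f, r, e => by
    rw [Net.hid, Net.hid, Per.hid h a L, h.pos, show a + P + L = a + L + P by omega, h.hstep]

variable (W)

/-! ### The hidden step seen at the positions -/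

variable {α : Type*}

/-- Extension of a permutation of the red cards `ι : α ↪ X` by the identity. -/
noncomputable def ext (ι : α ↪ X) : Perm α →* Perm X := Perm.viaEmbeddingHom ι

omit [Fintype X] [DecidableEq X] in
theorem ext_apply (ι : α ↪ X) (g : Perm α) (a : α) : ext ι g (ι a) = ι (g a) := by
  exact Perm.viaEmbedding_apply g ι a

omit [Fintype X] [DecidableEq X] in
theorem ext_apply_of_notMem (ι : α ↪ X) (g : Perm α) (x : X) (h : x ∉ Set.range ι) :
    ext ι g x = x := by
  exact Perm.viaEmbedding_apply_of_notMem g ι x h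

open Classical in
/-- The hidden coins restricted to the switches that contain two lines. -/
noncomputable def rrc (s : ℕ) (f : α ↪ X) (c : X → Bool) : X → Bool := fun z =>
  c z && decide (∃ a b, W.rep s (f a) = z ∧ f b = W.nb s (f a))

omit [Fintype X] [DecidableEq X] in
theorem rrc_pos {s : ℕ} {f : α ↪ X} {c : X → Bool} {z : X}
    (h : ∃ a b, W.rep s (f a) = z ∧ f b = W.nb s (f a)) : W.rrc s f c z = c z := by
  classical
  rw [rrc, decide_eq_true h, Bool.and_true]

omit [Fintype X] [DecidableEq X] in
theorem rrc_neg {s : ℕ} {f : α ↪ X} {c : X → Bool} {z : X}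
    (h : ¬ ∃ a b, W.rep s (f a) = z ∧ f b = W.nb s (f a)) : W.rrc s f c z = false := by
  classical
  rw [rrc, decide_eq_false h, Bool.and_false]

omit [Fintype X] [DecidableEq X] in
/-- Conjugating the hidden step by the current positions gives a switch step. -/
theorem mul_ext_hstep (s : ℕ) (ι : α ↪ X) (σ : Perm X) (c : X → Bool) :
    σ * ext ι (W.hstep s (mov σ ι) c) = W.sw s (W.rrc s (mov σ ι) c) * σ := by
  ext1 x
  rw [Perm.mul_apply, Perm.mul_apply, sw_apply]
  by_cases hx : x ∈ Set.range ι
  · obtain ⟨a, rfl⟩ := hx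
    rw [ext_apply, hstep_apply]
    by_cases hb : ∃ b, mov σ ι b = W.nb s (mov σ ι a)
    · obtain ⟨b, hb⟩ := hb
      have h1 : ∃ a' b', W.rep s (mov σ ι a') = W.rep s (σ (ι a)) ∧
          mov σ ι b' = W.nb s (mov σ ι a') := ⟨a, b, rfl, hb⟩
      rw [partner_of hb, W.rrc_pos h1]
      by_cases hc : c (W.rep s (mov σ ι a)) = true
      · rw [if_pos hc, if_pos (by simpa using hc)]
        simpa using hb
      · rw [if_neg hc, if_neg (by simpa using hc)]
    · have h1 : ¬ ∃ a' b', W.rep s (mov σ ι a') = W.rep s (σ (ι a)) ∧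
          mov σ ι b' = W.nb s (mov σ ι a') := by
        rintro ⟨a', b', h2, h3⟩
        rcases (W.rep_eq s _ _).1 h2 with h4 | h4
        · have : a = a' := (mov σ ι).injective h4
          subst this
          exact hb ⟨b', h3⟩
        · apply hb
          refine ⟨a', ?_⟩
          change _ = W.nb s (σ (ι a))
          rw [h4, W.nb_nb]
      rw [partner_of_not hb, W.rrc_neg h1]
      simp only [Bool.false_eq_true, if_false, ite_self]
  · rw [ext_apply_of_notMem _ _ _ hx]
    have h1 : ¬ ∃ a' b', W.rep s (mov σ ι a') = W.rep s (σ x) ∧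
        mov σ ι b' = W.nb s (mov σ ι a') := by
      rintro ⟨a', b', h2, h3⟩
      rcases (W.rep_eq s _ _).1 h2 with h4 | h4
      · exact hx ⟨a', (σ.injective h4).symm⟩
      · rw [← h3] at h4
        exact hx ⟨b', (σ.injective h4).symm⟩
    rw [W.rrc_neg h1]
    simp

/-- For fixed hidden coins the composed step has the law of a step. -/
theorem avg_step_hstep (s : ℕ) (ι : α ↪ X) (σ ρ : Perm X) (c' : X → Bool) (F : Perm X → ℝ) :
    (avg fun c : X → Bool => F (W.step s c * σ * (ext ι (W.hstep s (mov σ ι) c') * ρ))) =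
      avg fun c : X → Bool => F (W.step s c * (σ * ρ)) := by
  have hinv : Function.Involutive
      (fun (c : X → Bool) (x : X) => xor (c x) (W.rrc s (mov σ ι) c' x)) := by
    intro c
    funext x
    simp
  rw [← avg_equiv (Function.Involutive.toPerm _ hinv) (fun c : X → Bool => F (W.step s c * (σ * ρ)))]
  congr 1
  funext c
  congr 1
  rw [← mul_assoc, mul_assoc (W.step s c), mul_ext_hstep, Net.step, Net.step]
  have h1 : W.sw s (Function.Involutive.toPerm _ hinv c) = W.sw s c * W.sw s (W.rrc s (mov σ ι) c') := W.sw_xor s c _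
  rw [h1]
  simp only [mul_assoc]

/-- **The colour trick.** -/
theorem avg_pos_hid (a : ℕ) (ι : α ↪ X) (σ : Perm X) (L : ℕ) (F : Perm X → ℝ) (ρ : Perm X) :
    (avg fun r : Fin L → X → Bool => avg fun e : Fin L → X → Bool =>
      F (W.pos a L r * σ * (ext ι (W.hid a L (mov σ ι) r e) * ρ))) = W.run a L F (σ * ρ) := by
  induction L generalizing F with
  | zero =>
    rw [run_zero, avg_unique, avg_unique]
    simp [pos, hid]
  | succ L ih =>
    rw [run_succ, ← ih, avg_snoc]
    congr 1
    funext r
    rw [avg_comm]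
    have h1 : ∀ c : X → Bool, (avg fun e : Fin (L + 1) → X → Bool =>
        F (W.pos a (L + 1) (Fin.snoc r c) * σ *
          (ext ι (W.hid a (L + 1) (mov σ ι) (Fin.snoc r c) e) * ρ))) =
        avg fun e : Fin L → X → Bool => avg fun c' : X → Bool =>
          F (W.step (a + L) c * (W.pos a L r * σ) *
            (ext ι (W.hstep (a + L) (mov (W.pos a L r * σ) ι) c') *
              (ext ι (W.hid a L (mov σ ι) r e) * ρ))) := by
      intro c
      rw [avg_snoc]
      simp only [pos, hid, Fin.snoc_last, Fin.init_snoc, map_mul, mov_mul, mul_assoc]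
    have h2 : (avg fun c : X → Bool => avg fun e : Fin (L + 1) → X → Bool =>
        F (W.pos a (L + 1) (Fin.snoc r c) * σ *
          (ext ι (W.hid a (L + 1) (mov σ ι) (Fin.snoc r c) e) * ρ))) =
        avg fun e : Fin L → X → Bool => avg fun c' : X → Bool => avg fun c : X → Bool =>
          F (W.step (a + L) c * (W.pos a L r * σ) *
            (ext ι (W.hstep (a + L) (mov (W.pos a L r * σ) ι) c') *
              (ext ι (W.hid a L (mov σ ι) r e) * ρ))) := by
      simp only [h1]
      rw [avg_comm]
      congr 1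
      funext e
      rw [avg_comm]
    rw [avg_comm, h2]
    congr 1
    funext e
    have h3 : ∀ c' : X → Bool, (avg fun c : X → Bool =>
          F (W.step (a + L) c * (W.pos a L r * σ) *
            (ext ι (W.hstep (a + L) (mov (W.pos a L r * σ) ι) c') *
              (ext ι (W.hid a L (mov σ ι) r e) * ρ)))) =
        avg fun c : X → Bool => F (W.step (a + L) c * (W.pos a L r * σ *
          (ext ι (W.hid a L (mov σ ι) r e) * ρ))) := fun c' =>
      W.avg_step_hstep (a + L) ι (W.pos a L r * σ) (ext ι (W.hid a L (mov σ ι) r e) * ρ) c' F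
    simp only [h3]
    rw [avg_const]

end Net

end Vale.Agent.P162.S2
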