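import Vale.Agent.P162.Defs
import Vale.Agent.P162.S2.Col1

/-!
# P162, stage 2: blocks (gap + window), reduction to independent uniform geometries, chi-square

* `Mixes W T δ α` : the positions of the cards `α` after `T` steps are `δ`-close to uniform.
* `geo`, `EI` : law of the hidden permutation for a given geometry; expected total variation distance
  for independent uniform geometries.
* `qlaw` : the law of `h⁻¹ h'`.
-/

open Finset Equiv

namespace Vale.Agent.P162.S2

/-! ### Laws on a finite group -/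

section law
variable {G : Type*} [Group G] [Fintype G]

/-- `ν` is a probability law on `G`. -/
def IsLaw (ν : G → ℝ) : Prop := (∀ g, 0 ≤ ν g) ∧ ∑ g, ν g = 1

/-- The unit mass at `1`. -/
def dirac [DecidableEq G] (g : G) : ℝ := if g = 1 then 1 else 0

theorem isLaw_dirac [DecidableEq G] : IsLaw (dirac : G → ℝ) := by
  constructor
  · intro g
    unfold dirac
    split <;> norm_num
  · simp [dirac]

theorem sum_conv_mul (μ ν Φ : G → ℝ) :
    ∑ g, conv μ ν g * Φ g = ∑ h, μ h * ∑ g, ν g * Φ (h * g) := by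
  simp only [conv, sum_mul]
  rw [sum_comm]
  refine sum_congr rfl fun h _ => ?_
  rw [← Equiv.sum_comp (Equiv.mulLeft h), mul_sum]
  refine sum_congr rfl fun g _ => ?_
  simp [mul_assoc]

theorem IsLaw.conv {μ ν : G → ℝ} (hμ : IsLaw μ) (hν : IsLaw ν) : IsLaw (conv μ ν) := by
  constructor
  · intro g
    exact sum_nonneg fun h _ => mul_nonneg (hμ.1 h) (hν.1 _)
  · have h := sum_conv_mul μ ν fun _ => 1
    simpa [hν.2, hμ.2] using h

omit [Group G] in
theorem sum_unif [Nonempty G] : ∑ g, unif G g = 1 := by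
  have : (Fintype.card G : ℝ) ≠ 0 := by exact_mod_cast Fintype.card_ne_zero
  simp [unif, this]

omit [Group G] in
theorem tv_nonneg (μ ν : G → ℝ) : 0 ≤ tv μ ν := by
  have := sum_nonneg (s := univ) fun g _ => abs_nonneg (μ g - ν g)
  unfold tv
  positivity

theorem tv_le_one {ν : G → ℝ} (h : IsLaw ν) : tv ν (unif G) ≤ 1 := by
  have : ∑ g, |ν g - unif G g| ≤ ∑ g, (ν g + unif G g) := by
    refine sum_le_sum fun g _ => ?_
    have h1 := h.1 g
    have h2 : 0 ≤ unif G g := by unfold unif; positivity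
    rw [abs_le]
    constructor <;> linarith
  rw [sum_add_distrib, h.2, sum_unif] at this
  unfold tv
  linarith

theorem sum_mul_le {ν : G → ℝ} (h : IsLaw ν) {Φ : G → ℝ} (h0 : ∀ g, 0 ≤ Φ g) (h1 : ∀ g, Φ g ≤ 1) :
    ∑ g, ν g * Φ g ≤ avg Φ + tv ν (unif G) := by
  have h2 : ∀ g, (ν g - unif G g) * Φ g ≤ (|ν g - unif G g| + (ν g - unif G g)) / 2 := by
    intro g
    rcases le_total 0 (ν g - unif G g) with h3 | h3
    · rw [abs_of_nonneg h3]
      nlinarith [h0 g, h1 g]
    · rw [abs_of_nonpos h3]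
      nlinarith [h0 g, h1 g]
  have h4 : ∑ g, (ν g - unif G g) * Φ g ≤ tv ν (unif G) := by
    refine (sum_le_sum fun g _ => h2 g).trans ?_
    rw [← sum_div, sum_add_distrib, sum_sub_distrib, h.2, sum_unif]
    unfold tv
    linarith
  have h5 : ∑ g, ν g * Φ g = ∑ g, (ν g - unif G g) * Φ g + avg Φ := by
    have : avg Φ = ∑ g, unif G g * Φ g := by
      simp only [avg, unif, sum_div]
      refine sum_congr rfl fun g _ => ?_
      ring
    rw [this, ← sum_add_distrib]
    refine sum_congr rfl fun g _ => ?_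
    ring
  linarith

/-- The chi-square distance to the uniform law, plus one, is `|G| ∑ ν²`. -/
theorem tv_le_sqrt {ν : G → ℝ} (h : IsLaw ν) :
    tv ν (unif G) ≤ 1 / 2 * √(Fintype.card G * ∑ g, ν g ^ 2 - 1) := by
  have hc : (0 : ℝ) < Fintype.card G := by exact_mod_cast Fintype.card_pos
  have h1 : (∑ g, |ν g - unif G g|) ^ 2 ≤ Fintype.card G * ∑ g, |ν g - unif G g| ^ 2 := by
    have := sq_sum_le_card_mul_sum_sq (s := (univ : Finset G)) (f := fun g => |ν g - unif G g|)
    simpa using this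
  have h2 : Fintype.card G * ∑ g, |ν g - unif G g| ^ 2 = Fintype.card G * ∑ g, ν g ^ 2 - 1 := by
    simp only [sq_abs, sub_sq, sum_add_distrib, sum_sub_distrib]
    have h3 : ∑ g, 2 * ν g * unif G g = 2 / Fintype.card G := by
      have : ∀ g, 2 * ν g * unif G g = ν g * (2 / Fintype.card G) := by
        intro g
        unfold unif
        ring
      rw [sum_congr rfl fun g _ => this g, ← sum_mul, h.2, one_mul]
    have h4 : ∑ g, unif G g ^ 2 = 1 / Fintype.card G := by
      simp only [unif]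
      rw [sum_const, card_univ, nsmul_eq_mul]
      field_simp
    rw [h3, h4]
    field_simp
    ring
  rw [h2] at h1
  have h5 : ∑ g, |ν g - unif G g| ≤ √(Fintype.card G * ∑ g, ν g ^ 2 - 1) := by
    rw [← Real.sqrt_sq (sum_nonneg fun g _ => abs_nonneg (ν g - unif G g))]
    exact Real.sqrt_le_sqrt h1
  unfold tv
  linarith

end law

/-! ### Averages of square roots -/

theorem avg_sqrt_le {β : Type*} [Fintype β] [Nonempty β] {f : β → ℝ} (h : ∀ b, 0 ≤ f b) :
    (avg fun b => √(f b)) ≤ √(avg f) := by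
  have hc : (0 : ℝ) < Fintype.card β := by exact_mod_cast Fintype.card_pos
  apply Real.le_sqrt_of_sq_le
  have h1 : (∑ b, √(f b)) ^ 2 ≤ Fintype.card β * ∑ b, √(f b) ^ 2 := by
    have := sq_sum_le_card_mul_sum_sq (s := (univ : Finset β)) (f := fun b => √(f b))
    simpa using this
  have h2 : ∑ b, √(f b) ^ 2 = ∑ b, f b := sum_congr rfl fun b _ => Real.sq_sqrt (h b)
  rw [h2] at h1
  unfold avg
  rw [div_pow, div_le_div_iff₀ (by positivity) hc]
  nlinarith

theorem avg_congr {β : Type*} [Fintype β] {f g : β → ℝ} (h : ∀ b, f b = g b) : avg f = avg g :=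
  congrArg avg (funext h)

theorem sum_avg_mul {β γ : Type*} [Fintype β] [Fintype γ] (A : β → γ → ℝ) (Φ : γ → ℝ) :
    ∑ g, (avg fun b => A b g) * Φ g = avg fun b => ∑ g, A b g * Φ g := by
  rw [avg_sum]
  exact sum_congr rfl fun g _ => (avg_mul_right _ _).symm

/-! ### Embeddings and permutations -/

namespace Net

variable {X : Type*} [Fintype X] [DecidableEq X] {α : Type*} [Fintype α] [DecidableEq α]

omit [DecidableEq X] [DecidableEq α] in
theorem avg_mov (g : Perm X) (K : (α ↪ X) → ℝ) : avg (fun f => K (mov g f)) = avg K := by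
  let e : (α ↪ X) ≃ (α ↪ X) :=
    { toFun := fun f => mov g f
      invFun := fun f => mov g⁻¹ f
      left_inv := fun f => by
        change mov g⁻¹ (mov g f) = f
        rw [← mov_mul, inv_mul_cancel, mov_one]
      right_inv := fun f => by
        change mov g (mov g⁻¹ f) = f
        rw [← mov_mul, mul_inv_cancel, mov_one] }
  exact avg_equiv e K

omit [DecidableEq X] [Fintype α] [DecidableEq α] in
theorem exists_mov (f f' : α ↪ X) : ∃ z : Perm X, mov z f = f' := by
  classical
  let e : {x // x ∈ Set.range f} ≃ {x // x ∈ Set.range f'} :=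
    (Equiv.ofInjective f f.injective).symm.trans (Equiv.ofInjective f' f'.injective)
  refine ⟨e.extendSubtype, ?_⟩
  ext a
  have h1 : f a ∈ Set.range f := ⟨a, rfl⟩
  rw [mov_apply, e.extendSubtype_apply_of_mem _ h1]
  have h2 : (⟨f a, h1⟩ : {x // x ∈ Set.range f}) = Equiv.ofInjective f f.injective a := rfl
  rw [h2]
  simp [e]

omit [DecidableEq α] in
theorem avg_perm_mov (f : α ↪ X) (K : (α ↪ X) → ℝ) :
    (avg fun y : Perm X => K (mov y f)) = avg K := by
  have : Nonempty (α ↪ X) := ⟨f⟩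
  have h1 : ∀ h : α ↪ X, (avg fun y : Perm X => K (mov y h)) = avg fun y : Perm X => K (mov y f) := by
    intro h
    obtain ⟨z, rfl⟩ := exists_mov f h
    have := avg_equiv (Equiv.mulRight z) fun y : Perm X => K (mov y f)
    rw [← this]
    simp only [← mov_mul, Equiv.coe_mulRight]
  have h2 : avg K = avg fun h : α ↪ X => avg fun y : Perm X => K (mov y h) := by
    rw [avg_comm]
    have : ∀ y : Perm X, (avg fun h : α ↪ X => K (mov y h)) = avg K := fun y => avg_mov y K
    simp only [this]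
    rw [avg_const]
  rw [h2]
  simp only [h1]
  rw [avg_const]

omit [Fintype X] [DecidableEq X] [Fintype α] [DecidableEq α] in
/-- A permutation that fixes the complement of the range of `ι` comes from a permutation of `α`. -/
theorem exists_ext (ι : α ↪ X) (z : Perm X) (hz : ∀ x, x ∉ Set.range ι → z x = x) :
    ∃ π : Perm α, ext ι π = z := by
  have h : ∀ x, z x ∈ Set.range ι ↔ x ∈ Set.range ι := by
    intro x
    constructor
    · intro hx
      by_contra h'
      rw [hz x h'] at hx
      exact h' hx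
    · intro hx
      by_contra h'
      have := hz _ h'
      rw [z.injective this] at h'
      exact h' hx
  let e := Equiv.ofInjective ι ι.injective
  refine ⟨(e.trans (z.subtypePerm h)).trans e.symm, ?_⟩
  ext x
  by_cases hx : x ∈ Set.range ι
  · obtain ⟨a, rfl⟩ := hx
    rw [ext_apply]
    have h1 : ι ((e.trans (z.subtypePerm h)).trans e.symm a) =
        (e (((e.trans (z.subtypePerm h)).trans e.symm) a) : X) := rfl
    rw [h1]
    simp [e]
  · rw [ext_apply_of_notMem _ _ _ hx, hz x hx]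

variable (W : Net X)

/-- After `T` steps from any start, the positions of the cards `α` are `δ`-close to uniform. -/
def Mixes (T : ℕ) (δ : ℝ) (α : Type*) [Fintype α] [DecidableEq α] : Prop :=
  ∀ (f : α ↪ X) (F : (α ↪ X) → ℝ), (∀ g, 0 ≤ F g) → (∀ g, F g ≤ 1) →
    (avg fun w : Fin T → X → Bool => F (mov (W.pos 0 T w) f)) ≤ avg F + δ

variable {W}

omit [Fintype α] [DecidableEq α] in
/-- Functionals that do not see the order of the red cards mix. -/
theorem Mixes.blue {T : ℕ} {δ : ℝ} (ι : α ↪ X)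
    [DecidablePred fun x => x ∉ Set.range ι]
    (h : W.Mixes T δ {x // x ∉ Set.range ι}) (G : Perm X → ℝ) (h0 : ∀ g, 0 ≤ G g)
    (h1 : ∀ g, G g ≤ 1) (hG : ∀ x π, G (x * ext ι π) = G x) (x : Perm X) :
    W.run 0 T G x ≤ avg G + δ := by
  classical
  let ib : {x // x ∉ Set.range ι} ↪ X := Function.Embedding.subtype _
  have key : ∀ y y' : Perm X, mov y ib = mov y' ib → G y = G y' := by
    intro y y' hy
    obtain ⟨π, hπ⟩ := exists_ext ι (y'⁻¹ * y) (by
      intro z hz
      have h2 := DFunLike.congr_fun hy ⟨z, hz⟩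
      simp only [mov_apply, ib, Function.Embedding.subtype_apply] at h2
      rw [Perm.mul_apply, h2]
      simp)
    have h3 : y = y' * ext ι π := by rw [hπ, mul_inv_cancel_left]
    rw [h3, hG]
  choose z hz using fun k : {x // x ∉ Set.range ι} ↪ X => exists_mov ib k
  let F : ({x // x ∉ Set.range ι} ↪ X) → ℝ := fun k => G (z k)
  have hF : ∀ y : Perm X, F (mov y ib) = G y := fun y => key _ _ (hz _)
  have h2 := h (mov x ib) F (fun g => h0 _) (fun g => h1 _)
  have h3 : avg F = avg G := by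
    rw [← avg_perm_mov ib F]
    simp only [hF]
  rw [h3] at h2
  refine le_trans (le_of_eq ?_) h2
  rw [run]
  congr 1
  funext w
  rw [← mov_mul, hF]

/-! ### Blocks -/

variable (W)

/-- The law of the hidden permutation of a window of `D` steps with geometry `(f, r)`. -/
noncomputable def geo (D : ℕ) (f : α ↪ X) (r : Fin D → X → Bool) (h : Perm α) : ℝ :=
  avg fun e : Fin D → X → Bool => if W.hid 0 D f r e = h then 1 else 0

theorem sum_geo_mul (D : ℕ) (f : α ↪ X) (r : Fin D → X → Bool) (Φ : Perm α → ℝ) :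
    ∑ h, W.geo D f r h * Φ h = avg fun e : Fin D → X → Bool => Φ (W.hid 0 D f r e) := by
  simp only [geo, ← avg_mul_right, ← avg_sum]
  congr 1
  funext e
  simp

theorem isLaw_geo (D : ℕ) (f : α ↪ X) (r : Fin D → X → Bool) : IsLaw (W.geo D f r) := by
  constructor
  · intro h
    apply avg_nonneg
    intro e
    split <;> norm_num
  · have := W.sum_geo_mul D f r fun _ => 1
    rw [avg_const] at this
    simpa using this

/-- Expected total variation distance of the hidden permutation from uniform, for `R` independent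
uniform geometries, the hidden permutation having the law `ν` at the start. -/
noncomputable def EI (D : ℕ) : ℕ → (Perm α → ℝ) → ℝ
  | 0, ν => tv ν (unif (Perm α))
  | R + 1, ν => avg fun f : α ↪ X => avg fun r : Fin D → X → Bool =>
      EI D R (conv (W.geo D f r) ν)

theorem EI_nonneg (D : ℕ) : ∀ (R : ℕ) (ν : Perm α → ℝ), 0 ≤ W.EI D R ν
  | 0, _ => tv_nonneg _ _
  | R + 1, _ => avg_nonneg fun _ => avg_nonneg fun _ => EI_nonneg D R _

theorem avg_le_of_le {β : Type*} [Fintype β] {f : β → ℝ} {c : ℝ} (hc : 0 ≤ c)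
    (h : ∀ b, f b ≤ c) : avg f ≤ c := by
  rcases isEmpty_or_nonempty β with hβ | hβ
  · simp [avg, hc]
  · rw [← avg_const (α := β) c]
    exact avg_mono h

theorem EI_le_one (D : ℕ) : ∀ (R : ℕ) (ν : Perm α → ℝ), IsLaw ν → W.EI D R ν ≤ 1
  | 0, _, h => tv_le_one h
  | R + 1, _, h => avg_le_of_le zero_le_one fun _ => avg_le_of_le zero_le_one fun _ =>
      EI_le_one D R _ ((W.isLaw_geo _ _ _).conv h)

variable {W}

omit [Fintype α] [DecidableEq α] in
/-- One block: `T` revealed steps, then a window. -/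
theorem run_block {P T D : ℕ} (hW : W.Per P) (hT : P ∣ T) (hD : P ∣ D) (ι : α ↪ X)
    (F : Perm X → ℝ) (M : ℕ) (σ : Perm X) (π : Perm α) :
    W.run 0 (T + D + M) F (σ * ext ι π) =
      avg fun g : Fin T → X → Bool => avg fun r : Fin D → X → Bool =>
        avg fun e : Fin D → X → Bool =>
          W.run 0 M F (W.pos 0 D r * (W.pos 0 T g * σ) *
            ext ι (W.hid 0 D (mov (W.pos 0 T g * σ) ι) r e * π)) := by
  have hTD : W.run (0 + (T + D)) M F = W.run 0 M F := by
    funext x
    exact (hW.dvd (dvd_add hT hD)).run 0 M F x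
  have hT' : ∀ G, W.run (0 + T) D G = W.run 0 D G := fun G => by
    funext x
    exact (hW.dvd hT).run 0 D G x
  rw [run_add, run_add, hTD, hT', run]
  congr 1
  funext g
  rw [← mul_assoc, ← W.avg_pos_hid 0 ι]
  simp only [map_mul]

theorem run_blocks {P T D : ℕ} (hW : W.Per P) (hT : P ∣ T) (hD : P ∣ D) (ι : α ↪ X) {δ : ℝ}
    (hδ : W.Mixes T δ α) (F : Perm X → ℝ) (h0 : ∀ g, 0 ≤ F g) (h1 : ∀ g, F g ≤ 1) (R : ℕ)
    (σ : Perm X) (ν : Perm α → ℝ) (hν : IsLaw ν) :
    ∑ π, ν π * W.run 0 (R * (T + D)) F (σ * ext ι π) ≤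
      W.run 0 (R * (T + D)) (fun x => avg fun π : Perm α => F (x * ext ι π)) σ +
        W.EI D R ν + R * δ := by
  induction R generalizing σ ν with
  | zero =>
    simp only [run_zero, EI, Nat.cast_zero, zero_mul, add_zero]
    exact sum_mul_le hν (fun g => h0 _) fun g => h1 _
  | succ R ih =>
    have e1 : (R + 1) * (T + D) = T + D + R * (T + D) := by ring
    have hTD : ∀ G, W.run (0 + (T + D)) (R * (T + D)) G = W.run 0 (R * (T + D)) G := fun G => by
      funext x
      exact (hW.dvd (dvd_add hT hD)).run 0 _ G x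
    have hT' : ∀ G, W.run (0 + T) D G = W.run 0 D G := fun G => by
      funext x
      exact (hW.dvd hT).run 0 D G x
    -- the left side
    have e2 : ∑ π, ν π * W.run 0 ((R + 1) * (T + D)) F (σ * ext ι π) =
        avg fun g : Fin T → X → Bool => avg fun r : Fin D → X → Bool =>
          ∑ π, conv (W.geo D (mov (W.pos 0 T g * σ) ι) r) ν π *
            W.run 0 (R * (T + D)) F (W.pos 0 D r * (W.pos 0 T g * σ) * ext ι π) := by
      rw [e1]
      simp only [run_block hW hT hD, sum_conv_mul, sum_geo_mul, ← avg_mul_left, ← avg_sum]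
    rw [e2]
    have e3 : ∀ (g : Fin T → X → Bool) (r : Fin D → X → Bool),
        ∑ π, conv (W.geo D (mov (W.pos 0 T g * σ) ι) r) ν π *
            W.run 0 (R * (T + D)) F (W.pos 0 D r * (W.pos 0 T g * σ) * ext ι π) ≤
          W.run 0 (R * (T + D)) (fun x => avg fun π : Perm α => F (x * ext ι π))
            (W.pos 0 D r * (W.pos 0 T g * σ)) +
          W.EI D R (conv (W.geo D (mov (W.pos 0 T g * σ) ι) r) ν) + R * δ := fun g r =>
      ih _ _ ((W.isLaw_geo _ _ _).conv hν)
    refine (avg_mono fun g => avg_mono fun r => e3 g r).trans ?_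
    simp only [avg_add, avg_const]
    have e4 : W.run 0 ((R + 1) * (T + D)) (fun x => avg fun π : Perm α => F (x * ext ι π)) σ =
        avg fun g : Fin T → X → Bool => avg fun r : Fin D → X → Bool =>
          W.run 0 (R * (T + D)) (fun x => avg fun π : Perm α => F (x * ext ι π))
            (W.pos 0 D r * (W.pos 0 T g * σ)) := by
      rw [e1, run_add, run_add, hTD, hT']
      rfl
    have e5 : (avg fun g : Fin T → X → Bool => avg fun r : Fin D → X → Bool =>
        W.EI D R (conv (W.geo D (mov (W.pos 0 T g * σ) ι) r) ν)) ≤ W.EI D (R + 1) ν + δ := by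
      have := hδ (mov σ ι) (fun f => avg fun r : Fin D → X → Bool =>
        W.EI D R (conv (W.geo D f r) ν)) (fun f => avg_nonneg fun r => EI_nonneg _ _ _ _)
        (fun f => avg_le_of_le zero_le_one fun r =>
          W.EI_le_one _ _ _ ((W.isLaw_geo _ _ _).conv hν))
      simp only [← mov_mul] at this
      exact this
    rw [e4]
    push_cast
    linarith

/-! ### Chi-square -/

variable (W)

/-- The law of `h⁻¹ h'` for two independent hidden permutations with the same geometry `(f, r)`. -/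
noncomputable def geo2 (D : ℕ) (f : α ↪ X) (r : Fin D → X → Bool) (g : Perm α) : ℝ :=
  avg fun e : Fin D → X → Bool => avg fun e' : Fin D → X → Bool =>
    if (W.hid 0 D f r e)⁻¹ * W.hid 0 D f r e' = g then 1 else 0

/-- The law of `h⁻¹ h'` for two independent hidden permutations with the same geometry, the geometry
being uniform and weighted with `ω`. -/
noncomputable def qlaw (D : ℕ) (ω : (α ↪ X) → (Fin D → X → Bool) → ℝ) (g : Perm α) : ℝ :=
  avg fun f : α ↪ X => avg fun r : Fin D → X → Bool => ω f r * W.geo2 D f r g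

theorem sum_geo2_mul (D : ℕ) (f : α ↪ X) (r : Fin D → X → Bool) (Φ : Perm α → ℝ) :
    ∑ g, W.geo2 D f r g * Φ g =
      avg fun e : Fin D → X → Bool => avg fun e' : Fin D → X → Bool =>
        Φ ((W.hid 0 D f r e)⁻¹ * W.hid 0 D f r e') := by
  unfold geo2
  rw [sum_avg_mul]
  refine avg_congr fun e => ?_
  rw [sum_avg_mul]
  refine avg_congr fun e' => ?_
  simp

theorem sum_qlaw_mul (D : ℕ) (ω : (α ↪ X) → (Fin D → X → Bool) → ℝ) (Φ : Perm α → ℝ) :
    ∑ g, W.qlaw D ω g * Φ g = avg fun f : α ↪ X => avg fun r : Fin D → X → Bool =>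
      ω f r * ∑ g, W.geo2 D f r g * Φ g := by
  unfold qlaw
  rw [sum_avg_mul]
  refine avg_congr fun f => ?_
  rw [sum_avg_mul]
  refine avg_congr fun r => ?_
  rw [mul_sum]
  exact sum_congr rfl fun g _ => mul_assoc _ _ _

variable {W}

theorem geo2_nonneg (D : ℕ) (f : α ↪ X) (r : Fin D → X → Bool) (g : Perm α) :
    0 ≤ W.geo2 D f r g := by
  refine avg_nonneg fun e => avg_nonneg fun e' => ?_
  split <;> norm_num

theorem qlaw_nonneg {D : ℕ} {ω : (α ↪ X) → (Fin D → X → Bool) → ℝ} (h0 : ∀ f r, 0 ≤ ω f r)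
    (g : Perm α) : 0 ≤ W.qlaw D ω g :=
  avg_nonneg fun f => avg_nonneg fun r => mul_nonneg (h0 f r) (geo2_nonneg _ _ _ _)

theorem sum_geo2 (D : ℕ) (f : α ↪ X) (r : Fin D → X → Bool) : ∑ g, W.geo2 D f r g = 1 := by
  have h := W.sum_geo2_mul D f r fun _ => 1
  simp only [mul_one, avg_const] at h
  exact h

theorem sum_qlaw (D : ℕ) (ω : (α ↪ X) → (Fin D → X → Bool) → ℝ) :
    ∑ g, W.qlaw D ω g = avg fun f : α ↪ X => avg fun r : Fin D → X → Bool => ω f r := by
  have h := W.sum_qlaw_mul D ω fun _ => 1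
  simp only [mul_one, sum_geo2] at h
  exact h

theorem geo2_inv (D : ℕ) (f : α ↪ X) (r : Fin D → X → Bool) (g : Perm α) :
    W.geo2 D f r g⁻¹ = W.geo2 D f r g := by
  unfold geo2
  rw [avg_comm]
  refine avg_congr fun e => avg_congr fun e' => ?_
  have : (W.hid 0 D f r e')⁻¹ * W.hid 0 D f r e = g⁻¹ ↔
      (W.hid 0 D f r e)⁻¹ * W.hid 0 D f r e' = g := by
    rw [← inv_inj, mul_inv_rev, inv_inv, inv_inv]
  simp only [this]

theorem qlaw_inv (D : ℕ) (ω : (α ↪ X) → (Fin D → X → Bool) → ℝ) (g : Perm α) :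
    W.qlaw D ω g⁻¹ = W.qlaw D ω g := by
  unfold qlaw
  simp only [geo2_inv]

/-! ### Relabelling -/

/-- The lines `f` relabelled by `τ`. -/
def relab (τ : Perm α) (f : α ↪ X) : α ↪ X := τ.toEmbedding.trans f

omit [Fintype X] [DecidableEq X] [Fintype α] [DecidableEq α] in
@[simp] theorem relab_apply (τ : Perm α) (f : α ↪ X) (a : α) : relab τ f a = f (τ a) := rfl

omit [Fintype X] [DecidableEq X] [Fintype α] [DecidableEq α] in
theorem mov_relab (g : Perm X) (τ : Perm α) (f : α ↪ X) : mov g (relab τ f) = relab τ (mov g f) := by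
  ext; rfl

omit [Fintype X] [DecidableEq X] [Fintype α] [DecidableEq α] in
theorem partner_relab (s : ℕ) (τ : Perm α) (f : α ↪ X) (a : α) :
    W.partner s (relab τ f) a = τ⁻¹ (W.partner s f (τ a)) := by
  by_cases h : ∃ b, f b = W.nb s (f (τ a))
  · obtain ⟨b, hb⟩ := h
    rw [partner_of hb]
    apply partner_of
    simp [hb]
  · rw [partner_of_not h, partner_of_not]
    · simp
    · rintro ⟨b, hb⟩
      exact h ⟨τ b, hb⟩

omit [Fintype X] [DecidableEq X] [Fintype α] [DecidableEq α] in
theorem hstep_relab (s : ℕ) (τ : Perm α) (f : α ↪ X) (c : X → Bool) :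
    W.hstep s (relab τ f) c = τ⁻¹ * W.hstep s f c * τ := by
  ext1 a
  rw [Perm.mul_apply, Perm.mul_apply, hstep_apply, hstep_apply, partner_relab, relab_apply]
  split
  · rfl
  · simp

omit [Fintype X] [DecidableEq X] [Fintype α] [DecidableEq α] in
theorem hid_relab (a : ℕ) (τ : Perm α) (f : α ↪ X) : ∀ (L : ℕ) (r e : Fin L → X → Bool),
    W.hid a L (relab τ f) r e = τ⁻¹ * W.hid a L f r e * τ
  | 0, _, _ => by simp [hid]
  | L + 1, r, e => by
    rw [hid, hid, hid_relab a τ f L, mov_relab, hstep_relab]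
    group

theorem geo2_relab (D : ℕ) (f : α ↪ X) (r : Fin D → X → Bool) (x g : Perm α) :
    W.geo2 D (relab x⁻¹ f) r (x * g * x⁻¹) = W.geo2 D f r g := by
  unfold geo2
  refine avg_congr fun e => avg_congr fun e' => ?_
  have : ((W.hid 0 D (relab x⁻¹ f) r e)⁻¹ * W.hid 0 D (relab x⁻¹ f) r e' = x * g * x⁻¹) ↔
      (W.hid 0 D f r e)⁻¹ * W.hid 0 D f r e' = g := by
    rw [hid_relab, hid_relab]
    have h2 : (x⁻¹⁻¹ * W.hid 0 D f r e * x⁻¹)⁻¹ * (x⁻¹⁻¹ * W.hid 0 D f r e' * x⁻¹) =
        x * ((W.hid 0 D f r e)⁻¹ * W.hid 0 D f r e') * x⁻¹ := by group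
    rw [h2, mul_left_inj, mul_right_inj]
  simp only [this]

/-- For a relabelling invariant weight the law is a class function. -/
theorem qlaw_conj {D : ℕ} {ω : (α ↪ X) → (Fin D → X → Bool) → ℝ}
    (hω : ∀ τ f r, ω (relab τ f) r = ω f r) (x g : Perm α) :
    W.qlaw D ω (x * g * x⁻¹) = W.qlaw D ω g := by
  let E : (α ↪ X) ≃ (α ↪ X) :=
    { toFun := fun f => relab x⁻¹ f
      invFun := fun f => relab x f
      left_inv := fun f => by ext a; simp
      right_inv := fun f => by ext a; simp }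
  unfold qlaw
  refine (avg_equiv E _).symm.trans ?_
  refine avg_congr fun f => avg_congr fun r => ?_
  change ω (relab x⁻¹ f) r * W.geo2 D (relab x⁻¹ f) r (x * g * x⁻¹) = _
  rw [hω, geo2_relab]

/-- The truncated chi-square functional. -/
noncomputable def chi (W : Net X) (D : ℕ) (ω : (α ↪ X) → (Fin D → X → Bool) → ℝ) :
    ℕ → (Perm α → ℝ) → ℝ
  | 0, ν => Fintype.card (Perm α) * ∑ g, ν g ^ 2 - 1
  | R + 1, ν => avg fun f : α ↪ X => avg fun r : Fin D → X → Bool =>
      ω f r * chi W D ω R (conv (W.geo D f r) ν)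

theorem chi_nonneg {D : ℕ} {ω : (α ↪ X) → (Fin D → X → Bool) → ℝ} (h0 : ∀ f r, 0 ≤ ω f r) :
    ∀ (R : ℕ) (ν : Perm α → ℝ), IsLaw ν → 0 ≤ chi W D ω R ν
  | 0, ν, h => by
    have h1 : (∑ g, ν g) ^ 2 ≤ Fintype.card (Perm α) * ∑ g, ν g ^ 2 := by
      have := sq_sum_le_card_mul_sum_sq (s := (univ : Finset (Perm α))) (f := ν)
      simpa using this
    rw [h.2] at h1
    unfold chi
    linarith
  | R + 1, ν, h => avg_nonneg fun f => avg_nonneg fun r => mul_nonneg (h0 f r)
      (chi_nonneg h0 R _ ((W.isLaw_geo _ _ _).conv h))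

theorem EI_le {D : ℕ} {ω : (α ↪ X) → (Fin D → X → Bool) → ℝ} (h0 : ∀ f r, 0 ≤ ω f r)
    (h1 : ∀ f r, ω f r ≤ 1) (hne : Nonempty (α ↪ X)) (R : ℕ) (ν : Perm α → ℝ) (hν : IsLaw ν) :
    W.EI D R ν ≤ R * (1 - avg fun f : α ↪ X => avg fun r => ω f r) +
      1 / 2 * √(chi W D ω R ν) := by
  induction R generalizing ν with
  | zero =>
    simp only [EI, chi, Nat.cast_zero, zero_mul, zero_add]
    exact tv_le_sqrt hν
  | succ R ih =>
    set b : ℝ := 1 - avg fun f : α ↪ X => avg fun r => ω f r with hb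
    have hb0 : b = avg fun f : α ↪ X => avg fun r => (1 - ω f r) := by
      simp only [avg_sub, avg_const, hb]
    have hbn : 0 ≤ b := by
      rw [hb0]
      exact avg_nonneg fun f => avg_nonneg fun r => sub_nonneg.2 (h1 f r)
    have h2 : ∀ (f : α ↪ X) (r : Fin D → X → Bool), W.EI D R (conv (W.geo D f r) ν) ≤
        R * b + 1 / 2 * √(ω f r * chi W D ω R (conv (W.geo D f r) ν)) + (1 - ω f r) := by
      intro f r
      have hl := (W.isLaw_geo D f r).conv hν
      have h3 := ih _ hl
      have h4 := W.EI_le_one D R _ hl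
      have h5 : ω f r ≤ √(ω f r) := by
        rw [Real.le_sqrt (h0 f r) (h0 f r)]
        nlinarith [h0 f r, h1 f r]
      rw [Real.sqrt_mul (h0 f r)]
      have h6 := Real.sqrt_nonneg (chi W D ω R (conv (W.geo D f r) ν))
      have h7 : ω f r * W.EI D R (conv (W.geo D f r) ν) ≤
          ω f r * (R * b + 1 / 2 * √(chi W D ω R (conv (W.geo D f r) ν))) :=
        mul_le_mul_of_nonneg_left h3 (h0 f r)
      have h8 : ω f r * (R * b) ≤ R * b := by
        have : 0 ≤ (R : ℝ) * b := by positivity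
        nlinarith [h1 f r]
      have h9 : ω f r * √(chi W D ω R (conv (W.geo D f r) ν)) ≤
          √(ω f r) * √(chi W D ω R (conv (W.geo D f r) ν)) :=
        mul_le_mul_of_nonneg_right h5 h6
      have h10 : (1 - ω f r) * W.EI D R (conv (W.geo D f r) ν) ≤ 1 - ω f r := by
        nlinarith [h1 f r]
      nlinarith
    have h11 : W.EI D (R + 1) ν ≤ R * b + 1 / 2 * (avg fun f : α ↪ X => avg fun r =>
        √(ω f r * chi W D ω R (conv (W.geo D f r) ν))) + b := by
      rw [EI]
      refine (avg_mono fun f => avg_mono fun r => h2 f r).trans (le_of_eq ?_)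
      simp only [avg_add, avg_const, avg_mul_left, ← hb0]
    have h12 : (avg fun f : α ↪ X => avg fun r =>
        √(ω f r * chi W D ω R (conv (W.geo D f r) ν))) ≤ √(chi W D ω (R + 1) ν) := by
      rw [chi]
      refine (avg_mono fun f => avg_sqrt_le fun r => mul_nonneg (h0 f r)
        (chi_nonneg h0 R _ ((W.isLaw_geo D f r).conv hν))).trans ?_
      exact avg_sqrt_le fun f => avg_nonneg fun r => mul_nonneg (h0 f r)
        (chi_nonneg h0 R _ ((W.isLaw_geo D f r).conv hν))
    push_cast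
    linarith

/-- The chi-square functional in terms of convolution powers of `qlaw`. -/
theorem chi_eq {D : ℕ} {ω : (α ↪ X) → (Fin D → X → Bool) → ℝ}
    (hω : ∀ τ f r, ω (relab τ f) r = ω f r) (R : ℕ) (ν : Perm α → ℝ) (hν : IsLaw ν) :
    chi W D ω R ν = Fintype.card (Perm α) *
      (∑ u, ν u * ∑ v, ν v * convPow (W.qlaw D ω) R (u⁻¹ * v)) -
        (∑ g, W.qlaw D ω g) ^ R := by
  induction R generalizing ν with
  | zero =>
    have h1 : ∀ u : Perm α, ∑ v, ν v * convPow (W.qlaw D ω) 0 (u⁻¹ * v) = ν u := by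
      intro u
      simp only [convPow, inv_mul_eq_one, mul_ite, mul_one, mul_zero]
      simp
    simp only [chi, h1, pow_zero, sq]
  | succ R ih =>
    rw [chi]
    set q := W.qlaw D ω with hq
    have h2 : ∀ (f : α ↪ X) (r : Fin D → X → Bool),
        ω f r * chi W D ω R (conv (W.geo D f r) ν) = Fintype.card (Perm α) *
          (∑ u, ν u * ∑ v, ν v * (ω f r * ∑ g, W.geo2 D f r g * convPow q R (u⁻¹ * g * v))) -
          (∑ g, q g) ^ R * ω f r := by
      intro f r
      rw [ih _ ((W.isLaw_geo D f r).conv hν)]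
      have h3 : ∑ u, conv (W.geo D f r) ν u * ∑ v, conv (W.geo D f r) ν v *
            convPow q R (u⁻¹ * v) =
          ∑ u, ν u * ∑ v, ν v * ∑ g, W.geo2 D f r g * convPow q R (u⁻¹ * g * v) := by
        simp only [sum_conv_mul, sum_geo_mul, sum_geo2_mul]
        simp only [← avg_mul_left, ← avg_sum, mul_inv_rev, mul_assoc]
      have h4 : ∑ u, ν u * ∑ v, ν v *
            (ω f r * ∑ g, W.geo2 D f r g * convPow q R (u⁻¹ * g * v)) =
          ω f r * ∑ u, ν u * ∑ v, ν v * ∑ g, W.geo2 D f r g * convPow q R (u⁻¹ * g * v) := by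
        rw [mul_sum]
        refine sum_congr rfl fun u _ => ?_
        rw [mul_sum, mul_sum, mul_sum]
        refine sum_congr rfl fun v _ => ?_
        ring
      rw [h3, h4]
      ring
    have h5 : ∀ u v : Perm α, (avg fun f : α ↪ X => avg fun r : Fin D → X → Bool =>
        ω f r * ∑ g, W.geo2 D f r g * convPow q R (u⁻¹ * g * v)) =
        convPow q (R + 1) (u⁻¹ * v) := by
      intro u v
      rw [← W.sum_qlaw_mul D ω fun g => convPow q R (u⁻¹ * g * v)]
      rw [convPow, conv,
        ← Equiv.sum_comp ((Equiv.inv (Perm α)).trans (MulAut.conj u).toEquiv)]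
      refine sum_congr rfl fun h _ => ?_
      have e1 : ((Equiv.inv (Perm α)).trans (MulAut.conj u).toEquiv) h = u * h⁻¹ * u⁻¹ := rfl
      rw [e1, qlaw_conj hω, qlaw_inv, ← hq]
      congr 2
      group
    simp only [h2, avg_sub, avg_mul_left, avg_sum, h5]
    rw [← sum_qlaw, ← hq, pow_succ]

/-! ### The main estimate of the Thorp side -/

/-- **Main estimate.** After `R` blocks (`T` steps, then a window of `D` steps) the deck is close to
uniform: `δ` is the mixing error of the red cards `α` and of the blue cards after `T` steps, `ω` any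
relabelling invariant weight of the geometries (for instance the indicator of good geometries). -/
theorem run_le {P T D : ℕ} (hW : W.Per P) (hT : P ∣ T) (hD : P ∣ D) (ι : α ↪ X)
    {δ : ℝ} (hδ : W.Mixes T δ α)
    (hδ' : W.Mixes T δ {x // x ∉ Set.range ι}) {ω : (α ↪ X) → (Fin D → X → Bool) → ℝ}
    (h0 : ∀ f r, 0 ≤ ω f r) (h1 : ∀ f r, ω f r ≤ 1) (hω : ∀ τ f r, ω (relab τ f) r = ω f r)
    {R : ℕ} (hR : 1 ≤ R) (F : Perm X → ℝ) (hF0 : ∀ g, 0 ≤ F g) (hF1 : ∀ g, F g ≤ 1) :
    W.run 0 (R * (T + D)) F 1 ≤ avg F + (R + 1) * δ +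
      R * (1 - avg fun f : α ↪ X => avg fun r => ω f r) +
      1 / 2 * √(Fintype.card (Perm α) * convPow (W.qlaw D ω) R 1 -
        (∑ g, W.qlaw D ω g) ^ R) := by
  set G : Perm X → ℝ := fun x => avg fun π : Perm α => F (x * ext ι π) with hG
  have a1 := run_blocks hW hT hD ι hδ F hF0 hF1 R 1 dirac isLaw_dirac
  have a2 : ∑ π : Perm α, dirac π * W.run 0 (R * (T + D)) F (1 * ext ι π) =
      W.run 0 (R * (T + D)) F 1 := by
    simp [dirac]
  rw [a2, ← hG] at a1
  have a3 : W.run 0 (R * (T + D)) G 1 ≤ avg G + δ := by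
    obtain ⟨R', rfl⟩ : ∃ R', R = R' + 1 := ⟨R - 1, by omega⟩
    have e1 : (R' + 1) * (T + D) = (R' * (T + D) + D) + T := by ring
    have e2 : W.run (0 + (R' * (T + D) + D)) T G = W.run 0 T G := by
      funext x
      exact (hW.dvd (dvd_add (Dvd.dvd.mul_left (dvd_add hT hD) R') hD)).run 0 T G x
    rw [e1, run_add, e2]
    have e3 : ∀ x, W.run 0 T G x ≤ avg G + δ := by
      intro x
      refine hδ'.blue ι G (fun g => avg_nonneg fun _ => hF0 _)
        (fun g => avg_le_of_le zero_le_one fun _ => hF1 _) (fun y π => ?_) x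
      have e4 := avg_equiv (Equiv.mulLeft π) fun ρ : Perm α => F (y * ext ι ρ)
      rw [hG]
      simp only
      rw [← e4]
      refine avg_congr fun ρ => ?_
      rw [Equiv.coe_mulLeft, map_mul, mul_assoc]
    refine (W.run_mono e3 1).trans (le_of_eq ?_)
    rw [run, avg_const]
  have a4 : avg G = avg F := by
    rw [hG, avg_comm]
    have : ∀ π : Perm α, (avg fun x : Perm X => F (x * ext ι π)) = avg F := fun π =>
      avg_equiv (Equiv.mulRight (ext ι π)) F
    simp only [this]
    rw [avg_const]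
  have a5 := EI_le (W := W) h0 h1 ⟨ι⟩ R dirac isLaw_dirac
  rw [chi_eq hω R dirac isLaw_dirac] at a5
  have a6 : ∑ u : Perm α, dirac u * ∑ v, dirac v * convPow (W.qlaw D ω) R (u⁻¹ * v) =
      convPow (W.qlaw D ω) R 1 := by
    simp [dirac]
  rw [a6] at a5
  rw [a4] at a3
  linarith

end Net

/-- From the functional form to the total variation distance. -/
theorem tv_le_of_forall {G : Type*} [Group G] [Fintype G] {μ : G → ℝ} (h : IsLaw μ) {ε : ℝ}
    (hε : ∀ F : G → ℝ, (∀ g, 0 ≤ F g) → (∀ g, F g ≤ 1) → ∑ g, μ g * F g ≤ avg F + ε) :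
    tv μ (unif G) ≤ ε := by
  classical
  have h1 := hε (fun g => if unif G g ≤ μ g then 1 else 0)
    (fun g => by split <;> norm_num) (fun g => by split <;> norm_num)
  have h2 : avg (fun g => if unif G g ≤ μ g then (1 : ℝ) else 0) =
      ∑ g, unif G g * (if unif G g ≤ μ g then (1 : ℝ) else 0) := by
    simp only [avg, unif, sum_div]
    refine sum_congr rfl fun g _ => ?_
    ring
  have h3 : ∀ g, |μ g - unif G g| =
      2 * ((μ g - unif G g) * (if unif G g ≤ μ g then (1 : ℝ) else 0)) - (μ g - unif G g) := by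
    intro g
    by_cases hg : unif G g ≤ μ g
    · rw [if_pos hg, abs_of_nonneg (sub_nonneg.2 hg)]
      ring
    · rw [if_neg hg, abs_of_neg (by linarith)]
      ring
  unfold tv
  simp only [h3]
  rw [sum_sub_distrib, ← mul_sum, sum_sub_distrib, h.2, sum_unif]
  simp only [sub_mul, sum_sub_distrib]
  linarith

end Vale.Agent.P162.S2
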