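import Vale.Agent.P162.S2.Defs

/-!
# P162, stage 2: generic switch networks, hidden permutations

At time `s` every point `x` of `X` is paired with `nb s x`; each pair is swapped or not according to
the coin at its representative `rep s x`; then the positions are renamed by `tw s`.
-/

open Finset Equiv

namespace Vale.Agent.P162.S2

/-- A switch network on the positions `X`. -/
structure Net (X : Type*) where
  /-- the other position of the switch -/
  nb : ℕ → X → X
  /-- the representative of the switch -/
  rep : ℕ → X → X
  /-- the fixed permutation of the positions after the switches -/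
  tw : ℕ → Perm X
  nb_nb : ∀ s x, nb s (nb s x) = x
  nb_ne : ∀ s x, nb s x ≠ x
  rep_eq : ∀ s x y, rep s x = rep s y ↔ y = x ∨ y = nb s x

namespace Net

variable {X : Type*} (W : Net X)

theorem rep_nb (s : ℕ) (x : X) : W.rep s (W.nb s x) = W.rep s x :=
  ((W.rep_eq s x (W.nb s x)).2 (Or.inr rfl)).symm

/-- The switches of time `s` with coins `c`. -/
def sw (s : ℕ) (c : X → Bool) : Perm X :=
  Function.Involutive.toPerm (fun x => if c (W.rep s x) then W.nb s x else x) (by
    intro x
    by_cases h : c (W.rep s x) = true
    · simp [h, W.rep_nb, W.nb_nb]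
    · simp [h])

theorem sw_apply (s : ℕ) (c : X → Bool) (x : X) :
    W.sw s c x = if c (W.rep s x) then W.nb s x else x := rfl

theorem sw_xor (s : ℕ) (c c' : X → Bool) :
    W.sw s (fun x => xor (c x) (c' x)) = W.sw s c * W.sw s c' := by
  ext1 x
  rw [Perm.mul_apply, sw_apply, sw_apply, sw_apply]
  cases h1 : c (W.rep s x) <;> cases h2 : c' (W.rep s x) <;> simp [h1, W.rep_nb, W.nb_nb]

/-- One step. -/
def step (s : ℕ) (c : X → Bool) : Perm X := W.tw s * W.sw s c

/-- The permutation performed by the `L` steps at times `a, …, a + L - 1` with coins `w`. -/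
def pos (a : ℕ) : ∀ L : ℕ, (Fin L → X → Bool) → Perm X
  | 0, _ => 1
  | L + 1, w => W.step (a + L) (w (Fin.last L)) * pos a L (Fin.init w)

section lines
variable {α : Type*}

open Classical in
/-- The line that shares with `a` the switch of time `s` (lines at the positions `f`); `a` itself if
there is none. -/
noncomputable def partner (s : ℕ) (f : α ↪ X) (a : α) : α :=
  if h : ∃ b, f b = W.nb s (f a) then h.choose else a

variable {W}

theorem partner_of {s : ℕ} {f : α ↪ X} {a b : α} (h : f b = W.nb s (f a)) :
    W.partner s f a = b := by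
  have h' : ∃ b, f b = W.nb s (f a) := ⟨b, h⟩
  rw [partner, dif_pos h']
  exact f.injective (h'.choose_spec.trans h.symm)

theorem partner_of_not {s : ℕ} {f : α ↪ X} {a : α}
    (h : ¬ ∃ b, f b = W.nb s (f a)) : W.partner s f a = a := by
  rw [partner, dif_neg h]

variable (W)

theorem partner_partner (s : ℕ) (f : α ↪ X) (a : α) :
    W.partner s f (W.partner s f a) = a := by
  by_cases h : ∃ b, f b = W.nb s (f a)
  · obtain ⟨b, hb⟩ := h
    rw [partner_of hb]
    exact partner_of (by rw [hb, W.nb_nb])
  · rw [partner_of_not h, partner_of_not h]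

theorem rep_partner (s : ℕ) (f : α ↪ X) (a : α) :
    W.rep s (f (W.partner s f a)) = W.rep s (f a) := by
  by_cases h : ∃ b, f b = W.nb s (f a)
  · obtain ⟨b, hb⟩ := h
    rw [partner_of hb, hb, W.rep_nb]
  · rw [partner_of_not h]

/-- The hidden permutation of the lines at time `s`: the two lines of a switch that contains two
lines are exchanged if the coin `c` of the switch says so. -/
noncomputable def hstep (s : ℕ) (f : α ↪ X) (c : X → Bool) : Perm α :=
  Function.Involutive.toPerm (fun a => if c (W.rep s (f a)) then W.partner s f a else a) (by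
    intro a
    by_cases h : c (W.rep s (f a)) = true
    · simp [h, W.rep_partner, W.partner_partner]
    · simp [h])

theorem hstep_apply (s : ℕ) (f : α ↪ X) (c : X → Bool) (a : α) :
    W.hstep s f c a = if c (W.rep s (f a)) then W.partner s f a else a := rfl

end lines

/-- Lines at the positions `f`, moved by the permutation `g` of the positions. -/
def mov {α : Type*} (g : Perm X) (f : α ↪ X) : α ↪ X := f.trans g.toEmbedding

@[simp] theorem mov_apply {α : Type*} (g : Perm X) (f : α ↪ X) (a : α) : mov g f a = g (f a) := rfl

theorem mov_one {α : Type*} (f : α ↪ X) : mov 1 f = f := by ext; rfl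

theorem mov_mul {α : Type*} (g h : Perm X) (f : α ↪ X) : mov (g * h) f = mov g (mov h f) := by
  ext; rfl

/-- The hidden permutation of the lines in the `L` steps at times `a, …, a + L - 1`, the lines
starting at `f` and moving with the revealed coins `r`; `e` are the hidden coins. -/
noncomputable def hid {α : Type*} (a : ℕ) :
    ∀ L : ℕ, (α ↪ X) → (Fin L → X → Bool) → (Fin L → X → Bool) → Perm α
  | 0, _, _, _ => 1
  | L + 1, f, r, e =>
    W.hstep (a + L) (mov (W.pos a L (Fin.init r)) f) (e (Fin.last L)) *
      hid a L f (Fin.init r) (Fin.init e)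

end Net

/-- The cube as a network. -/
def cube (d : ℕ) [NeZero d] : Net (V d) where
  nb s x := nb (dir d s) x
  rep s x := rep (dir d s) x
  tw _ := 1
  nb_nb _ _ := nb_nb _ _
  nb_ne _ _ := nb_ne _ _
  rep_eq _ _ _ := rep_eq_iff _ _ _

section
variable {d : ℕ} [NeZero d]

theorem cube_step (s : ℕ) (c : Coin d) : (cube d).step s c = sw (dir d s) c := by
  rw [Net.step]
  exact one_mul _

theorem cube_pos (a : ℕ) : ∀ (L : ℕ) (w : Fin L → Coin d), (cube d).pos a L w = pos a L w
  | 0, _ => rfl
  | L + 1, w => by
    rw [Net.pos, pos, cube_step, cube_pos a L]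

omit [NeZero d] in
theorem cube_mov {α : Type*} (g : Perm (V d)) (f : α ↪ V d) : Net.mov g f = mv g f := rfl

theorem cube_hstep {α : Type*} (s : ℕ) (f : α ↪ V d) (c : Coin d) :
    (cube d).hstep s f c = hstep (dir d s) f c := by
  ext1 a
  rfl

theorem cube_hid {α : Type*} (a : ℕ) : ∀ (L : ℕ) (f : α ↪ V d) (r e : Fin L → Coin d),
    (cube d).hid a L f r e = hid a L f r e
  | 0, _, _, _ => rfl
  | L + 1, f, r, e => by
    rw [Net.hid, hid, cube_hid a L, cube_pos, cube_hstep, cube_mov]

end

end Vale.Agent.P162.S2
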